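import Vale.Agent.P199.Final

namespace Vale.Agent.Results.P199.Full

theorem result : ∃ (D : Type) (_ : DivisionRing D),
    Algebra.IsAlgebraic (Subring.center D) D ∧
    ∃ x y : D, Algebra.adjoin (Subring.center D) {x, y} = ⊤ ∧
      Subfield.closure ((Subring.center D : Set D) ∪ {x, y}) = ⊤ ∧
      ¬ FiniteDimensional (Subring.center D) D := by
  obtain ⟨D, inst, h1, x, y, h2, h3⟩ := Vale.Agent.P199.main
  refine ⟨D, inst, h1, x, y, Algebra.eq_top_iff.mpr h2, top_unique fun a _ => ?_, h3⟩
  induction h2 a using Algebra.adjoin_induction with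
  | mem z hz => exact Subfield.subset_closure (Or.inr hz)
  | algebraMap r => exact Subfield.subset_closure (Or.inl r.2)
  | add a b ha hb iha ihb => exact add_mem (iha trivial) (ihb trivial)
  | mul a b ha hb iha ihb => exact mul_mem (iha trivial) (ihb trivial)

end Vale.Agent.Results.P199.Full
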